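import Vale.Agent.P181.H534.ThinHW
import Vale.Agent.P181.H421.Defs

set_option autoImplicit false

open Vale.Agent.P181 Vale.Agent.P181.H421 Vale.Agent.P181.H280

namespace Vale.Agent.Results.P181.ColumnBelowRowTwo

/-- **Reciprocity for partitions which below the second row are a single column.** For all `a`,
`b` (no relation between them) and `V = ℂ^(n+2)`, the canonical (Foulkes-Howe) map
`Sym^a(Sym^b V) → Sym^b(Sym^a V)` maps the highest weight vectors of weight `λ` bijectively onto
the highest weight vectors of weight `λ` whenever `λ_i ≤ 1` for all `i ≥ 3`; in particular `S_λ V`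
has the same multiplicity in `Sym^a(Sym^b V)` and in `Sym^b(Sym^a V)`. -/
theorem result (a b n : ℕ) :
    ∃ Ψ : Pleth a b (n + 2) →ₗ[ℂ] Pleth b a (n + 2),
      (∀ v : Fin a → Fin b → (Fin (n + 2) → ℂ), Ψ (prodRows v) = sumCols v) ∧ IsEquivariant Ψ ∧
      ∀ lam : Fin (n + 2) → ℕ, (∀ i : Fin n, lam i.succ.succ ≤ 1) →
        InjOnHW Ψ lam ∧
        (∀ y ∈ hwSpace lam (plethAct b a (n + 2)),
          ∃ x ∈ hwSpace lam (plethAct a b (n + 2)), Ψ x = y) ∧
        plethMult a b (n + 2) lam = plethMult b a (n + 2) lam :=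
  ⟨foulkesHowe a b (Fin (n + 2) → ℂ), foulkesHowe_tprod a b,
    fun g x => LinearMap.congr_fun (foulkesHowe_equivariant a b (Matrix.toLin' g)) x,
    fun lam hlam => ⟨fun x hx h0 => H534.foulkesHowe_injOn lam hlam x hx h0,
      fun y hy => H534.foulkesHowe_surjOn lam hlam y hy, H534.plethMult_eq lam hlam⟩⟩

end Vale.Agent.Results.P181.ColumnBelowRowTwo
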