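import Vale.Agent.P181.H534.HW3
import Vale.Agent.P181.H421.Defs

set_option autoImplicit false

open Vale.Agent.P181 Vale.Agent.P181.H421 Vale.Agent.P181.H280

namespace Vale.Agent.Results.P181.FewBelowRowThree

/-- **Foulkes' conjecture for partitions with few boxes below the third row.** For `a ≥ 2`, every
`b` and `V = ℂ^(n+3)`, the canonical (Foulkes-Howe) map `Sym^a(Sym^b V) → Sym^b(Sym^a V)` is
injective on the highest weight vectors of weight `λ` whenever
`a² + 2a + 2(λ_4 + ⋯ + λ_(n+3)) ≤ 2b + 5` (no condition on `λ_1`, `λ_2`, `λ_3`), and then the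
multiplicity of `S_λ V` in `Sym^a(Sym^b V)` is at most its multiplicity in `Sym^b(Sym^a V)`. -/
theorem result (a b n : ℕ) (ha : 2 ≤ a) :
    ∃ Ψ : Pleth a b (n + 3) →ₗ[ℂ] Pleth b a (n + 3),
      (∀ v : Fin a → Fin b → (Fin (n + 3) → ℂ), Ψ (prodRows v) = sumCols v) ∧ IsEquivariant Ψ ∧
      ∀ lam : Fin (n + 3) → ℕ,
        a * a + 2 * a + 2 * (∑ i : Fin n, lam i.succ.succ.succ) ≤ 2 * b + 5 →
        InjOnHW Ψ lam ∧ plethMult a b (n + 3) lam ≤ plethMult b a (n + 3) lam :=
  ⟨foulkesHowe a b (Fin (n + 3) → ℂ), foulkesHowe_tprod a b,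
    fun g x => LinearMap.congr_fun (foulkesHowe_equivariant a b (Matrix.toLin' g)) x,
    fun lam hlam => ⟨fun x hx h0 => H534.foulkesHowe_injOn3 ha lam hlam x hx h0,
      H534.plethMult_le3 ha lam hlam⟩⟩

end Vale.Agent.Results.P181.FewBelowRowThree
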