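import Vale.Agent.P181.H536.RowHW2
import Vale.Agent.P181.H421.Defs

set_option autoImplicit false

open Vale.Agent.P181 Vale.Agent.P181.H421 Vale.Agent.P181.H280

namespace Vale.Agent.Results.P181.LongFirstRow

/-- **Foulkes' conjecture for partitions with a long first row.** For `a ≥ 2`, every `b` and
`V = ℂ^(n+1)`, the canonical (Foulkes-Howe) map `Sym^a(Sym^b V) → Sym^b(Sym^a V)` is injective on
the highest weight vectors of weight `λ`, and the multiplicity of `S_λ V` in `Sym^a(Sym^b V)` is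
at most its multiplicity in `Sym^b(Sym^a V)`, whenever `r = λ_2 + ⋯ + λ_(n+1)` satisfies one of
the following:

* `t (t + 1) + a (a - 1) ≤ 2 b` and `2 r + a² (a - 1) ≤ a (2 b + t + 2)` for some `t` (for
  partitions `λ` of `ab` the last condition is `2 λ_1 ≥ a (a² - a - 2 - t)`);
* `b = s + a (a - 1) / 2` and, for all `2 ≤ i ≤ a` with `2 s < (i - 1) (i - 2)`,
  `r < (a - i + 1) (s + (i - 1) (i - 2) / 2 + 1) + ∑_(l = 1)^(i - 1) (s + i (i - 1) / 2 + 1 -
  l (i - 1))⁺`. -/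
theorem result (a b n : ℕ) (ha : 2 ≤ a) :
    ∃ Ψ : Pleth a b (n + 1) →ₗ[ℂ] Pleth b a (n + 1),
      (∀ v : Fin a → Fin b → (Fin (n + 1) → ℂ), Ψ (prodRows v) = sumCols v) ∧ IsEquivariant Ψ ∧
      ∀ (lam : Fin (n + 1) → ℕ) (r : ℕ), r = ∑ i : Fin n, lam i.succ →
        ((∃ t : ℕ, t * (t + 1) + a * (a - 1) ≤ 2 * b ∧
            2 * r + a ^ 2 * (a - 1) ≤ a * (2 * b + t + 2)) ∨
          (∃ s : ℕ, b = s + a * (a - 1) / 2 ∧
            ∀ i : ℕ, 2 ≤ i → i ≤ a → 2 * s < (i - 1) * (i - 2) →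
              r < (a - i + 1) * (s + (i - 1) * (i - 2) / 2 + 1) +
                ∑ l ∈ Finset.range (i - 1), (s + i * (i - 1) / 2 + 1 - (l + 1) * (i - 1)))) →
        InjOnHW Ψ lam ∧ plethMult a b (n + 1) lam ≤ plethMult b a (n + 1) lam := by
  refine ⟨foulkesHowe a b (Fin (n + 1) → ℂ), foulkesHowe_tprod a b,
    fun g x => LinearMap.congr_fun (foulkesHowe_equivariant a b (Matrix.toLin' g)) x,
    fun lam r hr hcond => ?_⟩
  subst hr
  obtain ⟨k, rfl⟩ : ∃ k, a = k + 1 := ⟨a - 1, by omega⟩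
  rw [Nat.add_sub_cancel] at hcond
  rcases hcond with ⟨t, ht, hlam⟩ | ⟨s, rfl, hs⟩
  · exact ⟨fun x hx h0 => H536.foulkesHowe_injOn_row ht lam hlam x hx h0,
      H536.plethMult_le_row ht lam hlam⟩
  · exact ⟨fun x hx h0 => H536.foulkesHowe_injOn_row' lam hs x hx h0,
      H536.plethMult_le_row' lam hs⟩

end Vale.Agent.Results.P181.LongFirstRow
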